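import Crest.Agent.R166.Iface

/-!
# Row 166, block LL (local law): definitions and sub-block statements

See `notes166/LL.md`.
-/

set_option autoImplicit false

open MeasureTheory ProbabilityTheory Filter Topology Complex
open scoped ENNReal NNReal BigOperators Matrix

noncomputable section

namespace Crest.Agent.R166

/-! ## Siegel calculus -/

/-- the quadratic form of the imaginary part of a complex symmetric matrix -/
def imq {ι : Type} [Fintype ι] (A : Matrix ι ι ℂ) (x : ι → ℂ) : ℝ := (star x ⬝ᵥ A *ᵥ x).im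

/-- complex symmetric with nonnegative imaginary part -/
def Sieg {ι : Type} [Fintype ι] (A : Matrix ι ι ℂ) : Prop := A.IsSymm ∧ ∀ x, 0 ≤ imq A x

/-- closeness in the Siegel upper half space -/
def Close {ι : Type} [Fintype ι] (ε : ℝ) (A B : Matrix ι ι ℂ) : Prop :=
  ∀ x y : ι → ℂ, ‖x ⬝ᵥ (A - B) *ᵥ y‖ ^ 2 ≤ ε ^ 2 * (imq B x * imq A y)

/-- the index sets `S`, `S'` are `ε`-decoupled for `G` -/
def Dcp {V : Type} [Fintype V] (G : Matrix V V ℂ) (ε : ℝ) (S S' : Set V) : Prop :=
  ∀ x y : V → ℂ, (∀ v, v ∉ S → x v = 0) → (∀ v, v ∉ S' → y v = 0) →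
    ‖x ⬝ᵥ G *ᵥ y‖ ^ 2 ≤ ε ^ 2 * (imq G x * imq G y)

/-! ## cavity quantities -/

section
variable {V : Type} [Fintype V] [DecidableEq V] {q : ℕ}

/-- the adjacency matrix of the single edge of `h` -/
def edgeM (σ : Pairing V q) (h : HE V q) : Matrix V V ℝ :=
  Matrix.single h.1 (σ h).1 1 + Matrix.single (σ h).1 h.1 1

/-- the Green function with the edge of `h` removed -/
def Gc (s : ℝ) (z : ℂ) (c : Cfg V q) (h : HE V q) : Matrix V V ℂ := Gr (Hm s c - edgeM c.1 h) z

/-- cavity value at the vertex of `h` -/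
def Yc (s : ℝ) (z : ℂ) (c : Cfg V q) (h : HE V q) : ℂ := Gc s z c h h.1 h.1

/-- the two ends of the edge of `h` are decoupled once the edge is removed -/
def dec (s : ℝ) (z : ℂ) (e : ℝ) (c : Cfg V q) (h : HE V q) : Prop :=
  ‖Gc s z c h h.1 (c.1 h).1‖ ^ 2 ≤ e ^ 2 * ((Yc s z c h).im * (Yc s z c (c.1 h)).im)

/-- good edges -/
def good (s : ℝ) (z : ℂ) (T e : ℝ) (c : Cfg V q) (h : HE V q) : Prop :=
  dec s z e c h ∧ hyp (Yc s z c h) ≤ T ∧ hyp (Yc s z c (c.1 h)) ≤ T

/-- fraction of bad edges -/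
def bad (s : ℝ) (z : ℂ) (T e : ℝ) (c : Cfg V q) : ℝ := frac fun h => ¬ good s z T e c h

/-- the two endpoints of the edge of `h` -/
def ends (σ : Pairing V q) (h : HE V q) : Set V := {h.1, (σ h).1}

/-- two environments agree up to depth `R` -/
def Agree {q : ℕ} (R : ℕ) (β β' : Env q) : Prop := ∀ l : List (Fin q), l.length ≤ R → β l = β' l

/-- empirical average of a function of (cavity value, environment) -/
def RA (s : ℝ) (z : ℂ) (F : ℂ × Env q → ℝ) (c : Cfg V q) : ℝ :=
  avg fun h : HE V q => F (Yc s z c h, view c h)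

/-- the same average after one step of the distributional recursion -/
def RB (π : Measure II) (s : ℝ) (z : ℂ) (F : ℂ × Env q → ℝ) (c : Cfg V q) : ℝ :=
  ∫ a, (avg fun h : Fin q → HE V q =>
    F (Psi s z a (fun j => Yc s z c (h j)), cons a fun j => view c (h j))) ∂π

/-! ## relabelling, switching, gluing -/

/-- conjugation of a pairing by a permutation of the half-edges -/
def conjP (τ : Equiv.Perm (HE V q)) (σ : Pairing V q) : Pairing V q :=
  ⟨τ * σ.1 * τ⁻¹, fun h => by
    refine ⟨?_, ?_⟩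
    · simp [Equiv.Perm.mul_apply, (σ.2 _).1]
    · intro hh
      have h1 : σ.1 (τ⁻¹ h) = τ⁻¹ h := by
        have := congrArg (τ⁻¹ : Equiv.Perm (HE V q)) hh
        simpa [Equiv.Perm.mul_apply] using this
      exact (σ.2 _).2 h1⟩

/-- relabelling of the vertices -/
def relabel {V' : Type} (e : V ≃ V') (c : Cfg V q) : Cfg V' q :=
  (⟨(e.prodCongr (Equiv.refl _)).permCongr c.1.1, fun h => by
    refine ⟨?_, ?_⟩
    · rw [Equiv.permCongr_apply, Equiv.permCongr_apply, Equiv.symm_apply_apply, (c.1.2 _).1,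
        Equiv.apply_symm_apply]
    · intro hh
      rw [Equiv.permCongr_apply, ← Equiv.eq_symm_apply] at hh
      exact (c.1.2 _).2 hh⟩, fun v => c.2 (e.symm v))

/-- switch of a configuration -/
def switchC (c : Cfg V q) (a b : HE V q) : Cfg V q := (switch c.1 a b, c.2)

/-- the underlying map of `sum0` -/
def sum0F (σ : Pairing V q) : HE (V ⊕ Fin 2) q → HE (V ⊕ Fin 2) q
  | (Sum.inl v, i) => (Sum.inl (σ (v, i)).1, (σ (v, i)).2)
  | (Sum.inr o, i) => (Sum.inr o.rev, i)

omit [Fintype V] [DecidableEq V] in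
theorem sum0F_invol (σ : Pairing V q) : Function.Involutive (sum0F σ) := by
  rintro ⟨v | o, i⟩
  · simp [sum0F, (σ.2 _).1]
  · simp [sum0F]

/-- two new vertices joined to each other by all their half-edges -/
def sum0 (σ : Pairing V q) : Pairing (V ⊕ Fin 2) q :=
  ⟨(sum0F_invol σ).toPerm, fun h => ⟨sum0F_invol σ h, by
    rcases h with ⟨v | o, i⟩
    · intro hh
      simp only [Function.Involutive.coe_toPerm, sum0F, Prod.mk.injEq, Sum.inl.injEq] at hh
      exact (σ.2 (v, i)).2 (Prod.ext hh.1 hh.2)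
    · intro hh
      simp only [Function.Involutive.coe_toPerm, sum0F, Prod.mk.injEq, Sum.inr.injEq] at hh
      revert hh; revert o; decide +revert⟩⟩

/-- an old half-edge -/
def inlH (h : HE V q) : HE (V ⊕ Fin 2) q := (Sum.inl h.1, h.2)

/-- the half-edges of the new vertex `o = inr 0` -/
def oH (V : Type) {q : ℕ} (i : Fin (q + 1)) : HE (V ⊕ Fin 2) q := (Sum.inr 0, i)

/-- the `d` oriented edges are distinct as edges -/
def Disj (σ : Pairing V q) (α : Fin (q + 1) → HE V q) : Prop :=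
  ∀ i j, i ≠ j → α i ≠ α j ∧ α i ≠ σ (α j)

instance (σ : Pairing V q) (α : Fin (q + 1) → HE V q) : Decidable (Disj σ α) := by
  unfold Disj; infer_instance

/-- gluing two new vertices: for `Disj σ α`, `(inr 0, j) ~ σ (α j)` and `(inr 1, j) ~ α j` -/
def glue (σ : Pairing V q) (α : Fin (q + 1) → HE V q) : Pairing (V ⊕ Fin 2) q :=
  conjP (List.ofFn fun j => Equiv.swap (inlH (α j)) (oH V j)).prod (sum0 σ)

/-- glued configuration -/
def glueC (c : Cfg V q) (α : Fin (q + 1) → HE V q) (w : Fin 2 → II) : Cfg (V ⊕ Fin 2) q :=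
  (glue c.1 α, Sum.elim c.2 w)

end

/-- families of real functions of a configuration and a half-edge -/
abbrev FamH (q : ℕ) : Type 1 :=
  ∀ (V : Type) [Fintype V] [DecidableEq V], Cfg V q → HE V q → ℝ

/-- families of events -/
abbrev FamP (q : ℕ) : Type 1 := ∀ (V : Type) [Fintype V] [DecidableEq V], Cfg V q → Prop

/-- relabelling invariant, measurable families -/
structure FamH.OK {q : ℕ} (g : FamH q) : Prop where
  inv : ∀ (V V' : Type) [Fintype V] [DecidableEq V] [Fintype V'] [DecidableEq V'] (e : V ≃ V')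
    (c : Cfg V q) (h : HE V q), g V' (relabel e c) (e h.1, h.2) = g V c h
  meas : ∀ (V : Type) [Fintype V] [DecidableEq V] (h : HE V q), Measurable fun c => g V c h

/-- expectation over a configuration, `d` uniform distinct oriented edges and two new potentials -/
def gE {q : ℕ} (π : Measure II) (V : Type) [Fintype V] [DecidableEq V]
    (f : Cfg V q → (Fin (q + 1) → HE V q) → (Fin 2 → II) → ℝ) : ℝ :=
  ∫ c, ∫ w, (avg fun α => if Disj c.1 α then f c α w else 0) ∂(Measure.pi fun _ => π)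
    ∂cfgLaw V q π

open Classical in
/-- indicator of a proposition -/
def ind (p : Prop) : ℝ := if p then 1 else 0

/-- a system of events, stable under local modifications at the cost of one level, on which the
fraction of `T₁`-bad edges is at most `θ` -/
structure Lev (q : ℕ) (s : ℝ) (z : ℂ) (n₁ lm : ℕ) (T₁ θ : ℝ) (Ω : ℕ → FamP q) : Prop where
  meas : ∀ (l : ℕ) (V : Type) [Fintype V] [DecidableEq V], MeasurableSet {c | Ω l V c}
  mono : ∀ (l : ℕ) (V : Type) [Fintype V] [DecidableEq V] (c : Cfg V q), Ω l V c → Ω (l + 1) V c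
  inv : ∀ (l : ℕ) (V V' : Type) [Fintype V] [DecidableEq V] [Fintype V'] [DecidableEq V']
    (e : V ≃ V') (c : Cfg V q), Ω l V' (relabel e c) ↔ Ω l V c
  unglue : ∀ (l : ℕ) (V : Type) [Fintype V] [DecidableEq V] (c : Cfg V q)
    (α : Fin (q + 1) → HE V q) (w : Fin 2 → II), l < lm → n₁ ≤ Fintype.card V → Disj c.1 α →
    Ω l (V ⊕ Fin 2) (glueC c α w) → Ω (l + 1) V c
  glue : ∀ (l : ℕ) (V : Type) [Fintype V] [DecidableEq V] (c : Cfg V q)
    (α : Fin (q + 1) → HE V q) (w : Fin 2 → II), l < lm → n₁ ≤ Fintype.card V → Disj c.1 α →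
    Ω l V c → Ω (l + 1) (V ⊕ Fin 2) (glueC c α w)
  switch : ∀ (l : ℕ) (V : Type) [Fintype V] [DecidableEq V] (c : Cfg V q) (a b : HE V q),
    l < lm → n₁ ≤ Fintype.card V → Ω l V c → Ω (l + 1) V (switchC c a b)
  small : ∀ (l : ℕ) (V : Type) [Fintype V] [DecidableEq V] (c : Cfg V q), l ≤ lm → Ω l V c →
    bad s z T₁ (1 / 50) c ≤ θ

/-- weighted expected fraction of bad edges -/
def betaW {q : ℕ} (π : Measure II) (s : ℝ) (z : ℂ) (Ω : FamP q) (T : ℝ) (V : Type) [Fintype V]
    [DecidableEq V] : ℝ :=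
  ∫ c, ind (Ω V c) * bad s z T (1 / 50) c ∂cfgLaw V q π

/-- bounded measurable test functions, Lipschitz in the cavity value and local in the environment -/
def TestF {q : ℕ} (Λ ε₂ : ℝ) (R : ℕ) (F : ℂ × Env q → ℝ) : Prop :=
  Measurable F ∧ (∀ p, |F p| ≤ 1) ∧ ∀ p p' : ℂ × Env q, 0 < p.1.im → 0 < p'.1.im →
    Agree R p.2 p'.2 → |F p - F p'| ≤ Λ * √(gam p.1 p'.1) + ε₂

end Crest.Agent.R166
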