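import Crest.Agent.R166.LL.Defs

/-!
# Row 166, block LL: sub-block statements (recipes in `notes166/LL.md`)
-/

set_option autoImplicit false

open MeasureTheory ProbabilityTheory Filter Topology Complex
open scoped ENNReal NNReal BigOperators Matrix

noncomputable section

namespace Crest.Agent.R166

/-! ## LG: measurability, invariance, gluing -/

/-- measurability and relabelling invariance of the basic observables; description of `glue` -/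
structure StKit : Prop where
  meas_Gr : ∀ (q : ℕ) (s : ℝ) (z : ℂ) (V : Type) [Fintype V] [DecidableEq V] (x y : V),
    Measurable fun c : Cfg V q => Gr (Hm s c) z x y
  meas_Yc : ∀ (q : ℕ) (s : ℝ) (z : ℂ) (V : Type) [Fintype V] [DecidableEq V] (h : HE V q),
    Measurable fun c : Cfg V q => Yc s z c h
  meas_dec : ∀ (q : ℕ) (s : ℝ) (z : ℂ) (e : ℝ) (V : Type) [Fintype V] [DecidableEq V]
    (h : HE V q), MeasurableSet {c : Cfg V q | dec s z e c h}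
  meas_good : ∀ (q : ℕ) (s : ℝ) (z : ℂ) (T e : ℝ) (V : Type) [Fintype V] [DecidableEq V]
    (h : HE V q), MeasurableSet {c : Cfg V q | good s z T e c h}
  meas_bad : ∀ (q : ℕ) (s : ℝ) (z : ℂ) (T e : ℝ) (V : Type) [Fintype V] [DecidableEq V],
    Measurable fun c : Cfg V q => bad s z T e c
  meas_view : ∀ (q : ℕ) (V : Type) [Fintype V] [DecidableEq V] (h : HE V q),
    Measurable fun c : Cfg V q => view c h
  meas_sview : ∀ (q : ℕ) (V : Type) [Fintype V] [DecidableEq V] (h : HE V q),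
    Measurable fun c : Cfg V q => sview c h
  meas_RA : ∀ (q : ℕ) (s : ℝ) (z : ℂ) (V : Type) [Fintype V] [DecidableEq V]
    (F : ℂ × Env q → ℝ), Measurable F → Measurable fun c : Cfg V q => RA s z F c
  meas_RB : ∀ (q : ℕ) (π : Measure II) [IsProbabilityMeasure π] (s : ℝ) (z : ℂ) (V : Type)
    [Fintype V] [DecidableEq V] (F : ℂ × Env q → ℝ), Measurable F →
    Measurable fun c : Cfg V q => RB π s z F c
  meas_glue : ∀ (q : ℕ) (V : Type) [Fintype V] [DecidableEq V] (α : Fin (q + 1) → HE V q),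
    Measurable fun p : Cfg V q × (Fin 2 → II) => glueC p.1 α p.2
  inv_sigma : ∀ (q : ℕ) (V V' : Type) [Fintype V] [DecidableEq V] [Fintype V'] [DecidableEq V']
    (e : V ≃ V') (c : Cfg V q) (h : HE V q),
    (relabel e c).1 (e h.1, h.2) = (e (c.1 h).1, (c.1 h).2)
  inv_Gr : ∀ (q : ℕ) (s : ℝ) (z : ℂ) (V V' : Type) [Fintype V] [DecidableEq V] [Fintype V']
    [DecidableEq V'] (e : V ≃ V') (c : Cfg V q) (x y : V),
    Gr (Hm s (relabel e c)) z (e x) (e y) = Gr (Hm s c) z x y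
  inv_Yc : ∀ (q : ℕ) (s : ℝ) (z : ℂ) (V V' : Type) [Fintype V] [DecidableEq V] [Fintype V']
    [DecidableEq V'] (e : V ≃ V') (c : Cfg V q) (h : HE V q),
    Yc s z (relabel e c) (e h.1, h.2) = Yc s z c h
  inv_dec : ∀ (q : ℕ) (s : ℝ) (z : ℂ) (ε : ℝ) (V V' : Type) [Fintype V] [DecidableEq V]
    [Fintype V'] [DecidableEq V'] (e : V ≃ V') (c : Cfg V q) (h : HE V q),
    dec s z ε (relabel e c) (e h.1, h.2) ↔ dec s z ε c h
  inv_good : ∀ (q : ℕ) (s : ℝ) (z : ℂ) (T ε : ℝ) (V V' : Type) [Fintype V] [DecidableEq V]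
    [Fintype V'] [DecidableEq V'] (e : V ≃ V') (c : Cfg V q) (h : HE V q),
    good s z T ε (relabel e c) (e h.1, h.2) ↔ good s z T ε c h
  inv_bad : ∀ (q : ℕ) (s : ℝ) (z : ℂ) (T ε : ℝ) (V V' : Type) [Fintype V] [DecidableEq V]
    [Fintype V'] [DecidableEq V'] (e : V ≃ V') (c : Cfg V q),
    bad s z T ε (relabel e c) = bad s z T ε c
  inv_view : ∀ (q : ℕ) (V V' : Type) [Fintype V] [DecidableEq V] [Fintype V'] [DecidableEq V']
    (e : V ≃ V') (c : Cfg V q) (h : HE V q), view (relabel e c) (e h.1, h.2) = view c h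
  inv_RA : ∀ (q : ℕ) (s : ℝ) (z : ℂ) (V V' : Type) [Fintype V] [DecidableEq V] [Fintype V']
    [DecidableEq V'] (e : V ≃ V') (c : Cfg V q) (F : ℂ × Env q → ℝ),
    RA s z F (relabel e c) = RA s z F c
  inv_RB : ∀ (q : ℕ) (π : Measure II) (s : ℝ) (z : ℂ) (V V' : Type) [Fintype V] [DecidableEq V]
    [Fintype V'] [DecidableEq V'] (e : V ≃ V') (c : Cfg V q) (F : ℂ × Env q → ℝ),
    RB π s z F (relabel e c) = RB π s z F c
  law_relabel : ∀ (q : ℕ) (π : Measure II) [IsProbabilityMeasure π] (V V' : Type) [Fintype V]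
    [DecidableEq V] [Fintype V'] [DecidableEq V'] (e : V ≃ V'),
    MeasurePreserving (relabel (q := q) e) (cfgLaw V q π) (cfgLaw V' q π)
  law_le : ∀ (q : ℕ) (π : Measure II) [IsProbabilityMeasure π] (V : Type) [Fintype V]
    [DecidableEq V], IsZeroOrProbabilityMeasure (cfgLaw V q π)
  glue_spec : ∀ (q : ℕ) (V : Type) [Fintype V] [DecidableEq V] (σ : Pairing V q)
    (α : Fin (q + 1) → HE V q), Disj σ α →
    (∀ j, glue σ α (Sum.inr 0, j) = inlH (σ (α j))) ∧ (∀ j, glue σ α (Sum.inr 1, j) = inlH (α j)) ∧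
    ∀ h, (∀ j, h ≠ α j ∧ h ≠ σ (α j)) → glue σ α (inlH h) = inlH (σ h)

/-- exchangeability and the gluing bijection -/
def StGX : Prop :=
  ∀ q : ℕ, ∃ C : ℝ, ∀ (π : Measure II) [IsProbabilityMeasure π] (V V' : Type) [Fintype V]
    [DecidableEq V] [Fintype V'] [DecidableEq V'] (g : FamH q), g.OK → 1 ≤ Fintype.card V →
    Fintype.card V' = Fintype.card V + 2 → (∀ (W : Type) [Fintype W] [DecidableEq W] c h, |g W c h| ≤ 1) →
    |∫ c, avg (g V' c) ∂cfgLaw V' q π -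
        avg fun i => gE π V fun c α w => g (V ⊕ Fin 2) (glueC c α w) (oH V i)| ≤
      C / Fintype.card V ∧
    (C ≤ Fintype.card V → (∀ (W : Type) [Fintype W] [DecidableEq W] c h, 0 ≤ g W c h) →
      ∫ c, ind (IsSimple c.1) * avg (g V' c) ∂cfgLaw V' q π ≤
        C * avg fun i => gE π V fun c α w => g (V ⊕ Fin 2) (glueC c α w) (oH V i))

/-- re-pairing two edges `a ~ σ a`, `b ~ σ b` as `a ~ b`, `σ a ~ σ b` preserves the law -/
def StSX : Prop :=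
  ∀ (q : ℕ) (π : Measure II) [IsProbabilityMeasure π] (V : Type) [Fintype V] [DecidableEq V]
    (f : Cfg V q → HE V q → HE V q → ℝ), (∀ a b, Measurable fun c => f c a b) →
    (∀ c a b, |f c a b| ≤ 1) →
    ∫ c, (avg fun p : HE V q × HE V q => ind (p.2 ≠ p.1 ∧ p.2 ≠ c.1 p.1) *
        f (switchC c p.1 (c.1 p.2)) p.1 (c.1 p.1)) ∂cfgLaw V q π =
      ∫ c, (avg fun p : HE V q × HE V q => ind (p.2 ≠ p.1 ∧ p.2 ≠ c.1 p.1) * f c p.1 p.2)
        ∂cfgLaw V q π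

/-- gluing changes few finite-depth views -/
def StView : Prop :=
  ∀ q R : ℕ, ∃ C : ℝ, ∀ (V : Type) [Fintype V] [DecidableEq V],
    (∀ (c : Cfg V q) (α : Fin (q + 1) → HE V q) (w : Fin 2 → II), Disj c.1 α →
      (frac fun h : HE V q => ¬ Agree R (view (glueC c α w) (inlH h)) (view c h)) ≤
        C / Fintype.card V) ∧
    ∀ (π : Measure II) [IsProbabilityMeasure π],
      (gE (q := q) π V fun c α w => ind (∃ j, ¬ Agree R (view (glueC c α w) (inlH (c.1 (α j))))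
        (view c (c.1 (α j))))) ≤ C / Fintype.card V

/-! ## LS: deterministic estimates from the Siegel calculus -/

/-- Ward identity: few good edges are coupled to a given small set -/
def StW : Prop :=
  ∃ C : ℝ, ∀ (q : ℕ) (s : ℝ) (z : ℂ) (V : Type) [Fintype V] [DecidableEq V] (c : Cfg V q)
    (S : Finset V) (T ε : ℝ), 0 < z.im → 0 ≤ T → 0 < ε →
    (frac fun h : HE V q => good s z T (1 / 10) c h ∧ ¬ Dcp (Gr (Hm s c) z) ε S (ends c.1 h)) ≤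
      C * S.card * T ^ 3 / (Fintype.card V * z.im * ε ^ 2)

/-- stability of the good edges under gluing and switching -/
def StStab : Prop :=
  ∀ q : ℕ, ∃ C : ℝ, ∀ (s : ℝ) (z : ℂ) (V : Type) [Fintype V] [DecidableEq V] (c : Cfg V q)
    (T e ε : ℝ), 0 < z.im → z.im ≤ T → 1 ≤ T → 0 ≤ e → e ≤ 1 / 20 → 0 < ε → ε ≤ 1 / 20 →
    1 ≤ Fintype.card V →
    (∀ (α : Fin (q + 1) → HE V q) (w : Fin 2 → II), Disj c.1 α →
      (frac fun h : HE V q => good s z T e c h ∧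
        ¬ gam (Yc s z (glueC c α w) (inlH h)) (Yc s z c h) ≤ ε ^ 2) ≤
          C * T ^ 3 / (Fintype.card V * z.im * ε ^ 2) ∧
      bad s z ((1 + ε) * T) (e + ε) (glueC c α w) ≤
        bad s z T e c + C * T ^ 3 / (Fintype.card V * z.im * ε ^ 2) ∧
      bad s z ((1 + ε) * T) (e + ε) c ≤
        bad s z T e (glueC c α w) + C * T ^ 3 / (Fintype.card V * z.im * ε ^ 2)) ∧
    ∀ a b : HE V q, bad s z ((1 + ε) * T) (e + ε) (switchC c a b) ≤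
      bad s z T e c + C * T ^ 3 / (Fintype.card V * z.im * ε ^ 2)

/-- the edges `α j`, `j ∈ J`, are decoupled from each other and from the group of the others -/
def Sep {q : ℕ} (s : ℝ) (z : ℂ) {V : Type} [Fintype V] [DecidableEq V] (c : Cfg V q)
    (α : Fin (q + 1) → HE V q) (J : Finset (Fin (q + 1))) (ε e : ℝ) : Prop :=
  ∀ j ∈ J, dec s z e c (α j) ∧
    Dcp (Gr (Hm s c) z) ε (⋃ k ∉ J, ends c.1 (α k)) (ends c.1 (α j)) ∧
    ∀ k ∈ J, k ≠ j → Dcp (Gr (Hm s c) z) ε (ends c.1 (α k)) (ends c.1 (α j))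

/-- Green function at the glued vertex -/
def StGL : Prop :=
  ∀ q : ℕ, ∃ C ε₀ : ℝ, 0 < ε₀ ∧ ∀ (s : ℝ) (z : ℂ) (V : Type) [Fintype V] [DecidableEq V]
    (c : Cfg V q) (α : Fin (q + 1) → HE V q) (w : Fin 2 → II) (J : Finset (Fin (q + 1)))
    (ε e : ℝ), 0 < z.im → 0 ≤ ε → ε ≤ ε₀ → 0 ≤ e → e ≤ 1 / 10 → Disj c.1 α → Sep s z c α J ε e →
    (∀ i, ∃ r : ℂ, 0 ≤ r.im ∧ ((∀ j, j ≠ i → j ∈ J) → r = 0) ∧
      gam (Yc s z (glueC c α w) (oH V i))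
        (-(z - s * (w 0 : ℝ) + r + ∑ j ∈ J.erase i, Yc s z c (c.1 (α j)))⁻¹) ≤ (C * (ε + e)) ^ 2) ∧
    (∃ r : ℂ, 0 ≤ r.im ∧
      gam (Gr (Hm s (glueC c α w)) z (Sum.inr 0) (Sum.inr 0))
        (-(z - s * (w 0 : ℝ) + r + ∑ j ∈ J, Yc s z c (c.1 (α j)))⁻¹) ≤ (C * (ε + e)) ^ 2) ∧
    (J = Finset.univ → Close (C * (ε + e))
      ((Gr (Hm s (glueC c α w)) z).submatrix (sp (glue c.1 α) (oH V 0)) (sp (glue c.1 α) (oH V 0)))
      (GamS s z (w 0) fun j => Yc s z c (c.1 (α j))))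

/-- an edge is decoupled if it is decoupled from a second edge before and after re-pairing -/
def StSW : Prop :=
  ∃ C : ℝ, 1 ≤ C ∧ ∀ (q : ℕ) (s : ℝ) (z : ℂ) (V : Type) [Fintype V] [DecidableEq V] (c : Cfg V q)
    (a b : HE V q) (ε : ℝ), 0 < z.im → 0 ≤ ε → ε ≤ 1 / 10 → b ≠ a → b ≠ c.1 a →
    Dcp (Gr (Hm s c) z) ε (ends c.1 a) (ends c.1 b) →
    Dcp (Gr (Hm s (switchC c a (c.1 b))) z) ε (ends (switch c.1 a (c.1 b)) a)
      (ends (switch c.1 a (c.1 b)) (c.1 a)) →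
    dec s z (C * ε) c a

/-- elementary bounds, change of the spectral parameter, large imaginary part -/
structure StZC : Prop where
  pos : ∀ (q : ℕ) (s : ℝ) (z : ℂ) (V : Type) [Fintype V] [DecidableEq V] (c : Cfg V q)
    (h : HE V q), 0 < z.im → 0 < (Yc s z c h).im ∧ ‖Yc s z c h‖ ≤ z.im⁻¹
  posG : ∀ (q : ℕ) (s : ℝ) (z : ℂ) (V : Type) [Fintype V] [DecidableEq V] (c : Cfg V q) (v : V),
    0 < z.im → 0 < (Gr (Hm s c) z v v).im ∧ ‖Gr (Hm s c) z v v‖ ≤ z.im⁻¹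
  zc : ∀ (q : ℕ) (s : ℝ) (z z' : ℂ) (V : Type) [Fintype V] [DecidableEq V] (c : Cfg V q)
    (h : HE V q) (e γ : ℝ), 0 < z.im → 0 < z'.im → 0 ≤ e → e ≤ 1 / 10 → 0 ≤ γ → γ ≤ 1 / 10 →
    ‖z - z'‖ ^ 2 ≤ γ ^ 2 * (z.im * z'.im) →
    gam (Yc s z' c h) (Yc s z c h) ≤ γ ^ 2 ∧ (dec s z e c h → dec s z' (e + 3 * γ) c h)
  mono2 : ∀ (q : ℕ) (s : ℝ) (E η : ℝ) (V : Type) [Fintype V] [DecidableEq V] (c : Cfg V q) (v : V),
    0 < η → (Gr (Hm s c) (E + η * I) v v).im ≤ 2 * (Gr (Hm s c) (E + (2 * η : ℝ) * I) v v).im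
  eig : ∀ (q : ℕ) (s : ℝ) (E η lam : ℝ) (V : Type) [Fintype V] [DecidableEq V] (c : Cfg V q)
    (u : V → ℝ) (v : V), 0 < η → Hm s c *ᵥ u = lam • u → |lam - E| ≤ η →
    u v ^ 2 ≤ 2 * η * (∑ x, u x ^ 2) * (Gr (Hm s c) (E + η * I) v v).im
  base : ∀ (q : ℕ) (e : ℝ), 0 < e → ∃ M₁ : ℝ, 1 ≤ M₁ ∧ ∀ (s : ℝ) (z : ℂ) (V : Type) [Fintype V]
    [DecidableEq V] (c : Cfg V q) (h : HE V q), 0 ≤ s → s ≤ 1 → M₁ ≤ z.im → |z.re| ≤ 2 * √(q : ℝ) →
    (c.1 h).1 ≠ h.1 → good s z (3 * z.im) e c h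
  dcp_symm : ∀ (V : Type) [Fintype V] [DecidableEq V] (A : Matrix V V ℝ) (z : ℂ) (ε : ℝ)
    (S S' : Set V), A.IsHermitian → Dcp (Gr A z) ε S S' → Dcp (Gr A z) ε S' S
  entry : ∀ (q : ℕ) (M T δ : ℝ), 0 < δ → ∃ ε : ℝ, 0 < ε ∧ ∀ (s : ℝ) (z z' : ℂ) (a : II)
    (m m' : Fin (q + 1) → ℂ) (A : Matrix (SI q) (SI q) ℂ), 0 ≤ s → s ≤ 1 → 0 < z.im → ‖z‖ ≤ M →
    0 < z'.im → ‖z - z'‖ ≤ ε → (∀ j, 0 < (m j).im ∧ 0 < (m' j).im ∧ hyp (m' j) ≤ T ∧
      ‖m j - m' j‖ ≤ ε) → Sieg A → Close ε A (GamS s z a m) →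
    ∀ x y, ‖A x y - GamS s z' a m' x y‖ ≤ δ

/-! ## LT: tail estimates -/

def StTB : Prop :=
  ∀ q : ℕ, 2 ≤ q → ∃ Cp : ℝ, 1 ≤ Cp ∧ ∀ M : ℝ, ∃ CT : ℝ, 2 ≤ CT ∧
    ∀ (π : Measure II) [IsProbabilityMeasure π] (s : ℝ) (z : ℂ), 0 ≤ s → s ≤ 1 → 0 < z.im →
      ‖z‖ ≤ M →
      (∀ (n₁ lm : ℕ) (T₁ θ : ℝ) (Ω : ℕ → FamP q), Lev q s z n₁ lm T₁ θ Ω → 1 ≤ n₁ → 1 ≤ T₁ →
        z.im ≤ T₁ → 0 ≤ θ → Cp * θ ≤ 1 / 2 →
        -- iterated tail bound
        (∀ (J l : ℕ) (V : Type) [Fintype V] [DecidableEq V], l + 2 * J ≤ lm →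
          n₁ + 4 * J ≤ Fintype.card V →
          betaW π s z (Ω l) (CT ^ J * T₁) V ≤
            (Cp * θ) ^ J + Cp * (CT ^ J * T₁) ^ 3 / (n₁ * z.im)) ∧
        -- edges that are not decoupled
        (∀ (l : ℕ) (T ε : ℝ) (V : Type) [Fintype V] [DecidableEq V], l < lm → n₁ ≤ Fintype.card V →
          T₁ ≤ T → 0 < ε → ε ≤ 1 / 50 →
          ∫ c, ind (Ω l V c) * frac (fun h => ¬ dec s z ε c h) ∂cfgLaw V q π ≤
            Cp * (betaW π s z (Ω (l + 1)) T V + T ^ 3 / (n₁ * z.im * ε ^ 2))) ∧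
        -- large diagonal entries, one cost
        ∀ (l : ℕ) (T : ℝ) (V V' : Type) [Fintype V] [DecidableEq V] [Fintype V'] [DecidableEq V'],
          l < lm → n₁ ≤ Fintype.card V → Fintype.card V' = Fintype.card V + 2 → T₁ ≤ T →
          ∫ c, ind (Ω l V' c) * frac (fun v => CT * T < (Gr (Hm s c) z v v).im) ∂cfgLaw V' q π ≤
            Cp * (betaW π s z (Ω (l + 1)) T V + T ^ 3 / (n₁ * z.im))) ∧
      -- large diagonal entries, two costs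
      ∀ (T x : ℝ) (V : Type) [Fintype V] [DecidableEq V], 1 ≤ T → z.im ≤ T → 0 ≤ x →
        ∫ c, ind (IsSimple c.1 ∧ bad s z T (1 / 50) c ≤ x) *
            frac (fun v => CT * T < (Gr (Hm s c) z v v).im) ∂cfgLaw V q π ≤
          Cp * (x + T ^ 3 / (Fintype.card V * z.im)) ^ 2

/-! ## LR: the distributional recursion holds in `L²` -/

def StRDE : Prop :=
  ∀ q : ℕ, 2 ≤ q → ∃ C : ℝ, ∀ R : ℕ, ∃ CR : ℝ,
    ∀ (π : Measure II) [IsProbabilityMeasure π] (s : ℝ) (z : ℂ) (n₁ lm N : ℕ) (T₁ θ T ε Λ ε₂ β δ : ℝ)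
      (Ω : ℕ → FamP q) (F : ℂ × Env q → ℝ) (V V' : Type) [Fintype V] [DecidableEq V] [Fintype V']
      [DecidableEq V'], 0 < z.im → Lev q s z n₁ lm T₁ θ Ω → 1 ≤ n₁ → 1 ≤ N → 2 * N + 2 ≤ lm →
      n₁ ≤ Fintype.card V → Fintype.card V' = Fintype.card V + 2 → 1 ≤ T → z.im ≤ T →
      0 < ε → ε ≤ 1 / 50 → 0 ≤ Λ → 0 ≤ ε₂ → TestF Λ ε₂ R F →
      betaW π s z (Ω (2 * N + 1)) T V ≤ β →
      ∫ c, ind (Ω (2 * N + 1) V c) * frac (fun h => ¬ dec s z ε c h) ∂cfgLaw V q π ≤ δ →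
      ∫ c, ind (Ω 0 V' c) * (RA s z F c - RB π s z F c) ^ 2 ∂cfgLaw V' q π ≤
        C * (Λ * ε + ε₂ + 1 / N + β + δ + T ^ 3 / (n₁ * z.im * ε ^ 2)) + CR / n₁

end Crest.Agent.R166
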